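import Vale.Agent.P240.U.Psl

namespace Vale.Agent.Results.P240.A1_psl

open Vale.Agent.P240 Matrix

theorem result (G : Type) [Group G] [Finite G] (hG : MinHyp 2 G) (n : ℕ) (hn : Odd n) (h3 : 3 ≤ n)
    (K : Type) [Field K] [Finite K] (h2 : (2 : K) ≠ 0)
    (hq : 100 * Nat.gcd (2 * n) (Nat.card K - 1) ≤ Nat.card K)
    (hq' : IsSquare (Nat.card K) → (100 * Nat.gcd (2 * n) (Nat.card K - 1)) ^ 2 ≤ Nat.card K)
    (L : Subgroup G) (hL : L.IsSubnormal) (hs : IsSimpleGroup L)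
    (e : L ≃* ProjectiveSpecialLinearGroup (Fin n) K) : HQ 2 (⊤ : Subgroup G) :=
  elim_A hG hn h3 h2 hL hs hq hq' e

end Vale.Agent.Results.P240.A1_psl
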